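import Vale.Agent.P279.H630.Tent

/-!
# The support `Q_s` is an `r`-point tent

`Qs b m` is the set of lattice points of the triangle with slopes `s = 9 (b - m) / m` and `s + 9`,
`0 ≤ j ≤ b` (lower edge included, upper edge excluded, apex included).  Its rows with more than
`t` points lie in `r (m - t)` consecutive rows as soon as `9 b² ≤ r m²`.
-/

set_option linter.all false

namespace Vale.Agent.P279.NG

open Finset

/-- lattice points of the triangle `{(j, i) : 0 ≤ j ≤ b, s j ≤ i < (s + 9) j}`, `s = 9 (b-m)/m`,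
together with the apex `(0,0)` -/
def Qs (b m : ℕ) : Finset (ℕ × ℕ) :=
  (Finset.range (b + 1) ×ˢ Finset.range (9 * b * b + 1)).filter fun p =>
    p = (0, 0) ∨ (1 ≤ p.1 ∧ 9 * (b - m) * p.1 ≤ m * p.2 ∧ m * p.2 < 9 * b * p.1)

theorem mem_Qs {b m : ℕ} (hm : 1 ≤ m) {p : ℕ × ℕ} :
    p ∈ Qs b m ↔ p = (0, 0) ∨
      (1 ≤ p.1 ∧ p.1 ≤ b ∧ 9 * (b - m) * p.1 ≤ m * p.2 ∧ m * p.2 < 9 * b * p.1) := by
  unfold Qs
  rw [Finset.mem_filter, Finset.mem_product, Finset.mem_range, Finset.mem_range]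
  constructor
  · rintro ⟨⟨h1, h2⟩, h3 | h3⟩
    · exact Or.inl h3
    · exact Or.inr ⟨h3.1, by omega, h3.2⟩
  · rintro (h3 | ⟨h1, h2, h3, h4⟩)
    · subst h3
      exact ⟨⟨by simp, by simp⟩, Or.inl rfl⟩
    · refine ⟨⟨by omega, ?_⟩, Or.inr ⟨h1, h3, h4⟩⟩
      have h5 : 9 * b * p.1 ≤ 9 * b * b := Nat.mul_le_mul_left _ h2
      have h6 : 1 * p.2 ≤ m * p.2 := Nat.mul_le_mul_right _ hm
      omega

/-- the arithmetic of one row -/
theorem row_bounds {c m t i j1 j2 : ℕ} (hc : 1 ≤ c) (hm : 1 ≤ m) (hj : j1 + t ≤ j2)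
    (hj2 : j2 ≤ m + c) (h1 : 9 * c * j2 ≤ m * i) (h2 : m * i < 9 * (m + c) * j1) :
    9 * t * (m + c) * c < m ^ 2 * i ∧
      m ^ 2 * i + 9 * (m + c) ^ 2 * t < 9 * t * (m + c) * c + 9 * (m + c) ^ 2 * m := by
  constructor
  · have a1 : 9 * c * (j1 + t) ≤ m * i := (Nat.mul_le_mul_left _ hj).trans h1
    have a2 : (m + c) * (9 * c * (j1 + t)) ≤ (m + c) * (m * i) := Nat.mul_le_mul_left _ a1
    have a3 : c * (m * i) < c * (9 * (m + c) * j1) := Nat.mul_lt_mul_of_pos_left h2 (by omega)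
    nlinarith [a2, a3]
  · have a1 : m * (m * i) < m * (9 * (m + c) * j1) := Nat.mul_lt_mul_of_pos_left h2 (by omega)
    have a2 : 9 * (m + c) * m * (j1 + t) ≤ 9 * (m + c) * m * (m + c) :=
      Nat.mul_le_mul_left _ (hj.trans hj2)
    nlinarith [a1, a2]

/-- a row with more than `t` points contains two abscissae at distance `≥ t` -/
theorem exists_pair {S : Finset (ℕ × ℕ)} {t i : ℕ}
    (h : t < (S.filter fun s => s.2 = i).card) :
    ∃ j1 j2, j1 + t ≤ j2 ∧ (j1, i) ∈ S ∧ (j2, i) ∈ S := by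
  classical
  set R := (S.filter fun s => s.2 = i).image Prod.fst with hR
  have hcard : R.card = (S.filter fun s => s.2 = i).card := by
    refine Finset.card_image_of_injOn ?_
    intro s hs s' hs' hss
    exact Prod.ext hss (((Finset.mem_filter.1 hs).2).trans ((Finset.mem_filter.1 hs').2).symm)
  have hmem : ∀ j ∈ R, (j, i) ∈ S := by
    intro j hj
    obtain ⟨s, hs, rfl⟩ := Finset.mem_image.1 hj
    obtain ⟨hs1, hs2⟩ := Finset.mem_filter.1 hs
    rw [← hs2]
    exact hs1
  have hne : R.Nonempty := Finset.card_pos.1 (by omega)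
  refine ⟨R.min' hne, R.max' hne, ?_, hmem _ (R.min'_mem hne), hmem _ (R.max'_mem hne)⟩
  have hsub : R ⊆ Finset.Icc (R.min' hne) (R.max' hne) := fun j hj =>
    Finset.mem_Icc.2 ⟨R.min'_le j hj, R.le_max' j hj⟩
  have := Finset.card_le_card hsub
  rw [Nat.card_Icc] at this
  omega

/-- a row of positive height with more than `t` points -/
theorem Qs_row {b m t i : ℕ} (hm : 1 ≤ m) (hmb : m < b) (hi : 1 ≤ i)
    (h : t < ((Qs b m).filter fun s => s.2 = i).card) :
    9 * t * b * (b - m) < m ^ 2 * i ∧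
      m ^ 2 * i + 9 * b ^ 2 * t < 9 * t * b * (b - m) + 9 * b ^ 2 * m := by
  obtain ⟨c, rfl⟩ := Nat.exists_eq_add_of_lt hmb
  obtain ⟨j1, j2, hj, h1, h2⟩ := exists_pair h
  have e : m + c + 1 = m + (c + 1) := by omega
  have e' : m + c + 1 - m = c + 1 := by omega
  rw [mem_Qs hm] at h1 h2
  rcases h1 with h1 | ⟨_, _, _, h1⟩
  · rw [Prod.mk.injEq] at h1; omega
  rcases h2 with h2 | ⟨_, h2, h2', _⟩
  · rw [Prod.mk.injEq] at h2; omega
  simp only at h1 h2 h2'
  rw [e'] at h2' ⊢
  rw [e] at h1 h2 ⊢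
  exact row_bounds (by omega) hm hj h2 h2' h1

/-- row zero is the apex only -/
theorem Qs_row_zero {b m : ℕ} (hm : 1 ≤ m) (hmb : m < b) :
    ((Qs b m).filter fun s => s.2 = 0).card ≤ 1 := by
  rw [Finset.card_le_one]
  have key : ∀ s ∈ (Qs b m).filter (fun s => s.2 = 0), s = (0, 0) := by
    intro s hs
    obtain ⟨hs1, hs2⟩ := Finset.mem_filter.1 hs
    rcases (mem_Qs hm).1 hs1 with h | ⟨h1, _, h2, _⟩
    · exact h
    · exfalso
      rw [hs2, mul_zero] at h2
      have : 0 < 9 * (b - m) * s.1 := by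
        have : 0 < b - m := by omega
        positivity
      omega
  intro a ha c hc
  rw [key a ha, key c hc]

/-- **`Q_s` is an `r`-point tent**: `r` torus points of multiplicity `m` (on a line) are
independent for the support `Qs b m`, as soon as `9 b² ≤ r m²`. -/
theorem good_Qs (r b m : ℕ) (hm : 1 ≤ m) (hmb : m < b) (h : 9 * b ^ 2 ≤ r * m ^ 2) :
    Good (Qs b m) (fun _ : Fin r => m) := by
  have hr : 1 ≤ r := by
    rcases Nat.eq_zero_or_pos r with h0 | h0
    · subst h0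
      have : 0 < 9 * b ^ 2 := by have : 0 < b := by omega
                                 positivity
      omega
    · exact h0
  have hm2 : 0 < m ^ 2 := by positivity
  refine good_rows r m _ (fun i => ?_) (fun t ht => ?_)
  · by_contra hcon
    push Not at hcon
    rcases Nat.eq_zero_or_pos i with rfl | hi
    · have := Qs_row_zero hm hmb
      omega
    · have := Qs_row hm hmb hi hcon
      omega
  · rcases Nat.eq_zero_or_pos t with rfl | ht0
    · refine ⟨0, fun i hi => ⟨Nat.zero_le _, ?_⟩⟩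
      rw [zero_add, Nat.sub_zero]
      rcases Nat.eq_zero_or_pos i with rfl | hi0
      · positivity
      · have h1 := (Qs_row hm hmb hi0 hi).2
        have h2 : 9 * b ^ 2 * m ≤ r * m ^ 2 * m := Nat.mul_le_mul_right _ h
        have h3 : m ^ 2 * i < m ^ 2 * (r * m) := by nlinarith [h1, h2]
        exact Nat.lt_of_mul_lt_mul_left h3
    · refine ⟨9 * t * b * (b - m) / m ^ 2 + 1, fun i hi => ?_⟩
      have hi0 : 1 ≤ i := by
        rcases Nat.eq_zero_or_pos i with rfl | h0
        · have := Qs_row_zero hm hmb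
          omega
        · exact h0
      obtain ⟨h1, h2⟩ := Qs_row hm hmb hi0 hi
      set L := 9 * t * b * (b - m) with hL
      have hdiv := Nat.div_add_mod L (m ^ 2)
      have hmod := Nat.mod_lt L hm2
      constructor
      · rw [Nat.succ_le_iff, Nat.div_lt_iff_lt_mul hm2]
        rw [mul_comm]; exact h1
      · obtain ⟨u, hu⟩ := Nat.exists_eq_add_of_lt ht
        have e : m - t = u + 1 := by omega
        rw [e]
        have h3 : 9 * b ^ 2 * (u + 1) ≤ r * m ^ 2 * (u + 1) := Nat.mul_le_mul_right _ h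
        have h4 : 9 * b ^ 2 * m = 9 * b ^ 2 * t + 9 * b ^ 2 * (u + 1) := by
          rw [← mul_add]; congr 1
        have h5 : m ^ 2 * (L / m ^ 2 + 1 + r * (u + 1))
            = m ^ 2 * (L / m ^ 2) + m ^ 2 + r * m ^ 2 * (u + 1) := by ring
        refine Nat.lt_of_mul_lt_mul_left (a := m ^ 2) ?_
        rw [h5]
        omega

end Vale.Agent.P279.NG
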