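import Mathlib

/-!
# The parametrisation polynomial `g(s)` of the nodal cubic and its root multiplicities
-/

set_option linter.all false

namespace Vale.Agent.P279.H630

open Polynomial Finset

variable {k : Type*} [Field k]

/-- `∑ c i l x ^ i y ^ l` at `x = s² - 1`, `y = s³ - s` -/
noncomputable def gP (j : ℕ) (c : ℕ → ℕ → k) : Polynomial k :=
  ∑ i ∈ Finset.range 3, ∑ l ∈ Finset.range (3 * j + 1),
    Polynomial.C (c i l) * ((X ^ 2 - 1) ^ i * (X ^ 3 - X) ^ l)

theorem monic_x2 : (X ^ 2 - 1 : Polynomial k).Monic := by monicity!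

theorem monic_x3 : (X ^ 3 - X : Polynomial k).Monic := by monicity!

theorem natDegree_x2 : (X ^ 2 - 1 : Polynomial k).natDegree = 2 := by compute_degree!

theorem natDegree_x3 : (X ^ 3 - X : Polynomial k).natDegree = 3 := by compute_degree!

theorem natDegree_term (i l : ℕ) :
    ((X ^ 2 - 1 : Polynomial k) ^ i * (X ^ 3 - X) ^ l).natDegree = 2 * i + 3 * l := by
  rw [(monic_x2.pow i).natDegree_mul (monic_x3.pow l), monic_x2.natDegree_pow,
    monic_x3.natDegree_pow, natDegree_x2, natDegree_x3]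
  ring

theorem natDegree_C_term {a : k} (ha : a ≠ 0) (i l : ℕ) :
    (C a * ((X ^ 2 - 1 : Polynomial k) ^ i * (X ^ 3 - X) ^ l)).natDegree = 2 * i + 3 * l := by
  rw [natDegree_C_mul ha, natDegree_term]

theorem C_term_ne_zero {a : k} (ha : a ≠ 0) (i l : ℕ) :
    C a * ((X ^ 2 - 1 : Polynomial k) ^ i * (X ^ 3 - X) ^ l) ≠ 0 :=
  mul_ne_zero (C_ne_zero.2 ha) (mul_ne_zero (monic_x2.pow i).ne_zero (monic_x3.pow l).ne_zero)

theorem gP_ne_zero (j : ℕ) (c : ℕ → ℕ → k) (hc : ∀ i l, 3 * j < i + l → c i l = 0)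
    (hne : ∃ i < 3, ∃ l, c i l ≠ 0) : gP j c ≠ 0 := by
  classical
  obtain ⟨i0, hi0, l0, h0⟩ := hne
  have hl0 : l0 < 3 * j + 1 := by
    by_contra h
    exact h0 (hc i0 l0 (by omega))
  have hsum : gP j c = ∑ p ∈ Finset.range 3 ×ˢ Finset.range (3 * j + 1),
      C (c p.1 p.2) * ((X ^ 2 - 1) ^ p.1 * (X ^ 3 - X) ^ p.2) := by
    rw [Finset.sum_product]; rfl
  intro hzero
  have hdeg := Polynomial.degree_sum_eq_of_disjoint
    (fun p : ℕ × ℕ => C (c p.1 p.2) * ((X ^ 2 - 1 : Polynomial k) ^ p.1 * (X ^ 3 - X) ^ p.2))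
    (Finset.range 3 ×ˢ Finset.range (3 * j + 1)) (by
      intro p hp q hq hpq
      simp only [Set.mem_setOf_eq, Finset.mem_product, Finset.mem_range] at hp hq
      have hcp : c p.1 p.2 ≠ 0 := fun h => hp.2 (by rw [h, C_0, zero_mul])
      have hcq : c q.1 q.2 ≠ 0 := fun h => hq.2 (by rw [h, C_0, zero_mul])
      simp only [Function.onFun, Function.comp, ne_eq]
      rw [degree_eq_natDegree hp.2, degree_eq_natDegree hq.2, natDegree_C_term hcp,
        natDegree_C_term hcq]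
      intro h
      have h' : 2 * p.1 + 3 * p.2 = 2 * q.1 + 3 * q.2 := by exact_mod_cast h
      exact hpq (Prod.ext (by omega) (by omega)))
  rw [← hsum, hzero, degree_zero] at hdeg
  have h1 := Finset.le_sup (f := fun p : ℕ × ℕ => (C (c p.1 p.2) *
    ((X ^ 2 - 1 : Polynomial k) ^ p.1 * (X ^ 3 - X) ^ p.2)).degree)
    (Finset.mem_product.2 ⟨Finset.mem_range.2 hi0, Finset.mem_range.2 hl0⟩ :
      (i0, l0) ∈ Finset.range 3 ×ˢ Finset.range (3 * j + 1))
  rw [← hdeg] at h1
  simp only [le_bot_iff, degree_eq_bot] at h1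
  exact C_term_ne_zero h0 i0 l0 h1

theorem natDegree_gP_le (j : ℕ) (c : ℕ → ℕ → k) (hc : ∀ i l, 3 * j < i + l → c i l = 0) :
    (gP j c).natDegree ≤ 9 * j := by
  unfold gP
  refine Polynomial.natDegree_sum_le_of_forall_le _ _ fun i hi => ?_
  refine Polynomial.natDegree_sum_le_of_forall_le _ _ fun l hl => ?_
  by_cases h : c i l = 0
  · rw [h, C_0, zero_mul, natDegree_zero]; omega
  · rw [natDegree_C_term h]
    have h1 : ¬ 3 * j < i + l := fun h' => h (hc i l h')
    omega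

/-- multiplicities at two distinct points -/
theorem rootMultiplicity_add_le {g : Polynomial k} (hg : g ≠ 0) {a b : k} (hab : a ≠ b) :
    g.rootMultiplicity a + g.rootMultiplicity b ≤ g.natDegree := by
  have h1 : (X - C a) ^ g.rootMultiplicity a * (X - C b) ^ g.rootMultiplicity b ∣ g := by
    refine IsCoprime.mul_dvd ?_ (pow_rootMultiplicity_dvd g a) (pow_rootMultiplicity_dvd g b)
    exact IsCoprime.pow (isCoprime_X_sub_C_of_isUnit_sub
      (isUnit_iff_ne_zero.2 (sub_ne_zero.2 hab)))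
  have h2 := natDegree_le_of_dvd h1 hg
  rw [((monic_X_sub_C a).pow _).natDegree_mul ((monic_X_sub_C b).pow _),
    (monic_X_sub_C a).natDegree_pow, (monic_X_sub_C b).natDegree_pow, natDegree_X_sub_C,
    natDegree_X_sub_C, mul_one, mul_one] at h2
  exact h2

/-- **(G1)** -/
theorem gpoly [CharZero k] (j : ℕ) (c : ℕ → ℕ → k) (hc : ∀ i l, 3 * j < i + l → c i l = 0)
    (hne : ∃ i < 3, ∃ l, c i l ≠ 0) :
    gP j c ≠ 0 ∧ (gP j c).rootMultiplicity (-1) + (gP j c).rootMultiplicity 1 ≤ 9 * j := by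
  have h0 := gP_ne_zero j c hc hne
  refine ⟨h0, (rootMultiplicity_add_le h0 ?_).trans (natDegree_gP_le j c hc)⟩
  intro h
  have h2 : (2 : k) = 0 := by linear_combination -h
  exact two_ne_zero h2

/-- **(G2)** -/
theorem coeff_comp_ne (g s : Polynomial k) (hg : g ≠ 0) (h1 : s.coeff 1 ≠ 0) :
    (g.comp s).coeff (g.rootMultiplicity (s.coeff 0)) ≠ 0 := by
  obtain ⟨q, hq, hq'⟩ := exists_eq_pow_rootMultiplicity_mul_and_not_dvd g hg (s.coeff 0)
  set n := g.rootMultiplicity (s.coeff 0) with hn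
  -- `s - s₀ = X r`
  have hs : X ∣ s - C (s.coeff 0) := by
    rw [X_dvd_iff]; simp
  obtain ⟨r, hr⟩ := hs
  have hr0 : r.coeff 0 = s.coeff 1 := by
    have := congrArg (fun p => p.coeff 1) hr
    simp only [coeff_sub, coeff_X_mul, coeff_C_succ, sub_zero] at this
    rw [← this]
  have hcomp : g.comp s = X ^ n * (r ^ n * q.comp s) := by
    conv_lhs => rw [hq]
    rw [mul_comp, pow_comp, sub_comp, X_comp, C_comp, hr]
    ring
  rw [hcomp]
  have := coeff_X_pow_mul (r ^ n * q.comp s) n 0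
  rw [zero_add] at this
  rw [this, mul_coeff_zero]
  refine mul_ne_zero ?_ ?_
  · rw [coeff_zero_eq_eval_zero, eval_pow, ← coeff_zero_eq_eval_zero, hr0]
    exact pow_ne_zero _ h1
  · rw [coeff_zero_eq_eval_zero, eval_comp, ← coeff_zero_eq_eval_zero]
    intro h
    exact hq' (dvd_iff_isRoot.2 h)

end Vale.Agent.P279.H630
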