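import Vale.Agent.P279.NG.Defs
import Mathlib

/-!
# Tent lemmas for `g` points

`good_rows`: points on the line `X = 1`; `good_cols`: columns of lengths `≤ g, 2g, …, mg`.
-/

set_option linter.all false

namespace Vale.Agent.P279.NG

open Finset Polynomial

section OneVar

variable {K : Type*} [Field K]

/-- moments of order `< n` vanish, hence so does the pairing with polynomials of degree `< n` -/
theorem sum_eval_eq_zero {ι : Type*} (S : Finset ι) (w u : ι → K) (n : ℕ)
    (h : ∀ b < n, ∑ s ∈ S, w s * u s ^ b = 0) (p : K[X]) (hp : p.natDegree < n) :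
    ∑ s ∈ S, w s * p.eval (u s) = 0 := by
  simp only [Polynomial.eval_eq_sum_range' hp, Finset.mul_sum]
  rw [Finset.sum_comm]
  refine Finset.sum_eq_zero fun b hb => ?_
  rw [← mul_zero (p.coeff b), ← h b (Finset.mem_range.1 hb), Finset.mul_sum]
  exact Finset.sum_congr rfl fun s _ => by ring

/-- Vandermonde: at most `t` points and `t` vanishing moments -/
theorem eq_zero_of_moments [CharZero K] (R : Finset ℕ) (w : ℕ → K) (t : ℕ) (hR : R.card ≤ t)
    (h : ∀ a < t, ∑ x ∈ R, w x * (x : K) ^ a = 0) : ∀ x ∈ R, w x = 0 := by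
  classical
  intro x hx
  have hd : (∏ z ∈ R.erase x, (X - C (z : K))).natDegree < t := by
    rw [Polynomial.natDegree_prod_of_monic _ _ fun z _ => monic_X_sub_C _]
    simp only [natDegree_X_sub_C, Finset.sum_const, smul_eq_mul, mul_one]
    rw [Finset.card_erase_of_mem hx]
    have := Finset.card_pos.2 ⟨x, hx⟩
    omega
  have h1 := sum_eval_eq_zero R w (fun x => (x : K)) t h _ hd
  rw [Finset.sum_eq_single x] at h1
  · rcases mul_eq_zero.1 h1 with h2 | h2
    · exact h2
    · exfalso
      rw [Polynomial.eval_prod, Finset.prod_eq_zero_iff] at h2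
      obtain ⟨z, hz, hz'⟩ := h2
      rw [eval_sub, eval_X, eval_C, sub_eq_zero] at hz'
      exact (Finset.mem_erase.1 hz).1 (Nat.cast_injective hz').symm
  · intro z hz hzx
    rw [Polynomial.eval_prod, Finset.prod_eq_zero (Finset.mem_erase.2 ⟨hzx, hz⟩), mul_zero]
    simp
  · intro h; exact absurd hx h

/-- a polynomial with exponents in an interval of length `g q` and `g` zeros of order `≥ q` -/
theorem eq_zero_of_interval [CharZero K] {g q A : ℕ} (y : Fin g → K) (hy : Function.Injective y)
    (hy0 : ∀ a, y a ≠ 0) (S : Finset ℕ) (hS : ∀ i ∈ S, A ≤ i ∧ i < A + g * q) (f : ℕ → K)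
    (h : ∀ a, ∀ b < q, ∑ i ∈ S, f i * ((i : K) ^ b * y a ^ i) = 0) : ∀ i ∈ S, f i = 0 := by
  classical
  set P : K[X] := ∑ i ∈ S, monomial (i - A) (f i) with hP
  have key : ∀ a, (X - C (y a)) ^ q ∣ P := by
    intro a
    rw [Polynomial.X_sub_C_pow_dvd_iff, Polynomial.X_pow_dvd_iff]
    intro k hk
    rw [← Polynomial.taylor_apply, Polynomial.taylor_coeff]
    -- multiply by `k! y^(A+k)`
    have hfac : ((k.factorial : ℕ) : K) ≠ 0 := by exact_mod_cast k.factorial_ne_zero
    have hpow : y a ^ (A + k) ≠ 0 := pow_ne_zero _ (hy0 a)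
    have h2 : ((k.factorial : ℕ) : K) * ((hasseDeriv k P).eval (y a) * y a ^ (A + k)) = 0 := by
      have hdeg : ((descPochhammer K k).comp (X - C (A : K))).natDegree < q := by
        refine lt_of_le_of_lt (Polynomial.natDegree_comp_le) ?_
        rw [natDegree_X_sub_C, mul_one, descPochhammer_natDegree]
        exact hk
      have h3 := sum_eval_eq_zero S (fun i => f i * y a ^ i) (fun i => (i : K)) q
        (fun b hb => by
          rw [← h a b hb]
          exact Finset.sum_congr rfl fun s _ => by ring) _ hdeg
      rw [← h3, hP, map_sum, Polynomial.eval_finset_sum, Finset.sum_mul, Finset.mul_sum]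
      refine Finset.sum_congr rfl fun i hi => ?_
      obtain ⟨hi1, hi2⟩ := hS i hi
      rw [Polynomial.hasseDeriv_monomial, Polynomial.eval_monomial, Polynomial.eval_comp,
        eval_sub, eval_X, eval_C, ← Nat.cast_sub hi1, descPochhammer_eval_eq_descFactorial,
        Nat.descFactorial_eq_factorial_mul_choose]
      by_cases hki : k ≤ i - A
      · have : y a ^ (i - A - k) * y a ^ (A + k) = y a ^ i := by
          rw [← pow_add]; congr 1; omega
        push_cast
        linear_combination ((k.factorial : K) * ((i - A).choose k : K) * f i) * this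
      · rw [Nat.choose_eq_zero_of_lt (by omega)]
        simp
    rcases mul_eq_zero.1 h2 with h3 | h3
    · exact absurd h3 hfac
    · rcases mul_eq_zero.1 h3 with h4 | h4
      · exact h4
      · exact absurd h4 hpow
  have hprod : (∏ a : Fin g, (X - C (y a)) ^ q) ∣ P := by
    refine Finset.prod_dvd_of_coprime ?_ fun a _ => key a
    intro a _ b _ hab
    exact IsCoprime.pow (Polynomial.isCoprime_X_sub_C_of_isUnit_sub
      (by rw [isUnit_iff_ne_zero, sub_ne_zero]; exact fun h => hab (hy h)))
  have hdeg : (∏ a : Fin g, (X - C (y a)) ^ q).natDegree = g * q := by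
    rw [Polynomial.natDegree_prod_of_monic _ _ fun z _ => (monic_X_sub_C _).pow _]
    simp
  intro i hi
  have hgq : 0 < g * q := by have := hS i hi; omega
  have hP0 : P = 0 := by
    refine Polynomial.eq_zero_of_dvd_of_natDegree_lt hprod ?_
    rw [hdeg]
    refine lt_of_le_of_lt (Polynomial.natDegree_sum_le_of_forall_le S _ (n := g * q - 1) ?_)
      (by omega)
    intro j hj
    refine (Polynomial.natDegree_monomial_le _).trans ?_
    have := hS j hj
    omega
  have hc := congrArg (fun p => p.coeff (i - A)) hP0
  simp only [hP, Polynomial.finset_sum_coeff, Polynomial.coeff_monomial, coeff_zero] at hc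
  rw [Finset.sum_eq_single i] at hc
  · simpa using hc
  · intro j hj hji
    rw [if_neg]
    have := hS j hj
    have := hS i hi
    omega
  · intro h; exact absurd hi h

end OneVar

section Tent

variable {K : Type*} [Field K] [CharZero K]

/-- **rows**: `g` points on the line `X = 1` -/
theorem eq_zero_of_rows {g m : ℕ} (S : Finset (ℕ × ℕ))
    (hm : ∀ i, (S.filter fun s => s.2 = i).card ≤ m)
    (h : ∀ t < m, ∃ A : ℕ, ∀ i, t < (S.filter fun s => s.2 = i).card →
      A ≤ i ∧ i < A + g * (m - t))
    (y : Fin g → K) (hy : Function.Injective y) (hy0 : ∀ a, y a ≠ 0)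
    (f : ℕ × ℕ → K) (hf : ∀ a, Van S f 1 (y a) m) : ∀ s ∈ S, f s = 0 := by
  classical
  -- the row as a set of abscissae
  have hrow : ∀ (i : ℕ) (F : ℕ × ℕ → K),
      ∑ s ∈ S.filter (fun s => s.2 = i), F s
        = ∑ x ∈ (S.filter fun s => s.2 = i).image Prod.fst, F (x, i) := by
    intro i F
    rw [Finset.sum_image]
    · refine Finset.sum_congr rfl fun s hs => ?_
      rw [← (Finset.mem_filter.1 hs).2]
    · intro s hs s' hs' hss
      exact Prod.ext hss (((Finset.mem_filter.1 hs).2).trans ((Finset.mem_filter.1 hs').2).symm)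
  have hcard : ∀ i, ((S.filter fun s => s.2 = i).image Prod.fst).card
      = (S.filter fun s => s.2 = i).card := by
    intro i
    refine Finset.card_image_of_injOn ?_
    intro s hs s' hs' hss
    exact Prod.ext hss (((Finset.mem_filter.1 hs).2).trans ((Finset.mem_filter.1 hs').2).symm)
  -- short rows vanish
  have hshort : ∀ t, (∀ a < t, ∀ i, ∑ s ∈ S.filter (fun s => s.2 = i), f s * (s.1 : K) ^ a = 0) →
      ∀ i, (S.filter fun s => s.2 = i).card ≤ t → ∀ s ∈ S, s.2 = i → f s = 0 := by
    intro t ht i hi s hs hsi
    have h1 := eq_zero_of_moments ((S.filter fun s => s.2 = i).image Prod.fst)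
      (fun x => f (x, i)) t (by rw [hcard]; exact hi) (fun a ha => by
        rw [← hrow i fun s => f s * (s.1 : K) ^ a]
        exact ht a ha i) s.1 (Finset.mem_image_of_mem _ (Finset.mem_filter.2 ⟨hs, hsi⟩))
    rw [← hsi] at h1
    exact h1
  have main : ∀ t ≤ m, ∀ a < t, ∀ i, ∑ s ∈ S.filter (fun s => s.2 = i), f s * (s.1 : K) ^ a = 0 := by
    intro t
    induction t with
    | zero => intro _ a ha; omega
    | succ t ih =>
      intro htm a ha i
      have ih' := ih (by omega)
      rcases Nat.lt_succ_iff_lt_or_eq.1 ha with ha' | rfl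
      · exact ih' a ha' i
      · -- the moment of order `a`
        by_cases hi : (S.filter fun s => s.2 = i).card ≤ a
        · refine Finset.sum_eq_zero fun s hs => ?_
          rw [hshort a ih' i hi s (Finset.mem_filter.1 hs).1 (Finset.mem_filter.1 hs).2, zero_mul]
        · obtain ⟨A, hA⟩ := h a (by omega)
          set T := (S.image Prod.snd).filter fun i => a < (S.filter fun s => s.2 = i).card with hT
          refine eq_zero_of_interval y hy hy0 T (A := A) (q := m - a) ?_
            (fun i => ∑ s ∈ S.filter (fun s => s.2 = i), f s * (s.1 : K) ^ a) ?_ i ?_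
          · intro j hj
            exact hA j (Finset.mem_filter.1 hj).2
          · intro k b hb
            have h1 := hf k a b (by omega)
            rw [← h1, ← Finset.sum_fiberwise_of_maps_to (s := S) (t := S.image Prod.snd)
              (g := Prod.snd) (fun s hs => Finset.mem_image_of_mem _ hs), hT]
            rw [Finset.sum_filter_of_ne]
            · refine Finset.sum_congr rfl fun j _ => ?_
              rw [Finset.sum_mul]
              refine Finset.sum_congr rfl fun s hs => ?_
              rw [(Finset.mem_filter.1 hs).2, one_pow]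
              ring
            · intro j _ hne
              by_contra hcon
              apply hne
              rw [Finset.sum_eq_zero, zero_mul]
              intro s hs
              rw [hshort a ih' j (by omega) s (Finset.mem_filter.1 hs).1
                (Finset.mem_filter.1 hs).2, zero_mul]
          · rw [hT, Finset.mem_filter]
            refine ⟨?_, by omega⟩
            obtain ⟨s, hs⟩ := Finset.card_pos.1 (show 0 < (S.filter fun s => s.2 = i).card by omega)
            exact Finset.mem_image.2 ⟨s, (Finset.mem_filter.1 hs).1, (Finset.mem_filter.1 hs).2⟩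
  intro s hs
  exact hshort m (main m le_rfl) s.2 (hm _) s hs rfl

/-- **columns**: column `j` lies in an interval of length `g (j - j0)`, `j0 < j ≤ j0 + m` -/
theorem eq_zero_of_cols {g m j0 : ℕ} (lo : ℕ → ℕ) (S : Finset (ℕ × ℕ))
    (h : ∀ s ∈ S, j0 < s.1 ∧ s.1 ≤ j0 + m ∧ lo s.1 ≤ s.2 ∧ s.2 < lo s.1 + g * (s.1 - j0))
    (x y : Fin g → K) (hx0 : ∀ a, x a ≠ 0) (hy : Function.Injective y) (hy0 : ∀ a, y a ≠ 0)
    (f : ℕ × ℕ → K) (hf : ∀ a, Van S f (x a) (y a) m) : ∀ s ∈ S, f s = 0 := by
  classical
  have main : ∀ q ≤ m, ∀ s ∈ S, s.1 ≤ j0 + q → f s = 0 := by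
    intro q
    induction q with
    | zero => intro _ s hs hle; have := h s hs; omega
    | succ q ih =>
      intro hqm s hs hle
      have ih' := ih (by omega)
      by_cases hs1 : s.1 ≤ j0 + q
      · exact ih' s hs hs1
      have hj : s.1 = j0 + (q + 1) := by omega
      -- kill the larger columns
      set p : K[X] := ∏ z ∈ Finset.Ioc (j0 + (q + 1)) (j0 + m), (X - C (z : K)) with hp
      have hpd : p.natDegree = m - (q + 1) := by
        rw [hp, Polynomial.natDegree_prod_of_monic _ _ fun z _ => monic_X_sub_C _]
        simp only [natDegree_X_sub_C, Finset.sum_const, smul_eq_mul, mul_one, Nat.card_Ioc]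
        omega
      have hpj : p.eval ((j0 + (q + 1) : ℕ) : K) ≠ 0 := by
        rw [hp, Polynomial.eval_prod, Finset.prod_ne_zero_iff]
        intro z hz
        rw [eval_sub, eval_X, eval_C, sub_ne_zero]
        intro hcon
        have := Nat.cast_injective hcon
        have := Finset.mem_Ioc.1 hz
        omega
      have hcol : ∀ F : ℕ × ℕ → K,
          ∑ s ∈ S.filter (fun s => s.1 = j0 + (q + 1)), F s
            = ∑ i ∈ (S.filter fun s => s.1 = j0 + (q + 1)).image Prod.snd,
                F (j0 + (q + 1), i) := by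
        intro F
        rw [Finset.sum_image]
        · refine Finset.sum_congr rfl fun s hs => ?_
          rw [← (Finset.mem_filter.1 hs).2]
        · intro s hs s' hs' hss
          exact Prod.ext
            (((Finset.mem_filter.1 hs).2).trans ((Finset.mem_filter.1 hs').2).symm) hss
      have h1 := eq_zero_of_interval (q := q + 1) (A := lo (j0 + (q + 1))) y hy hy0
        ((S.filter fun s => s.1 = j0 + (q + 1)).image Prod.snd) (fun i hi => ?_)
        (fun i => f (j0 + (q + 1), i)) ?_ s.2 ?_
      · rw [← h1, ← hj]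
      · obtain ⟨s', hs', rfl⟩ := Finset.mem_image.1 hi
        obtain ⟨hs'S, hs'j⟩ := Finset.mem_filter.1 hs'
        have := h s' hs'S
        rw [hs'j] at this
        have e : j0 + (q + 1) - j0 = q + 1 := by omega
        rw [e] at this
        exact ⟨this.2.2.1, this.2.2.2⟩
      · intro a b hb
        have h2 := sum_eval_eq_zero S (fun s => f s * ((s.2 : K) ^ b * (x a ^ s.1 * y a ^ s.2)))
          (fun s => (s.1 : K)) (m - b) (fun c hc => by
            rw [← hf a c b (by omega)]
            exact Finset.sum_congr rfl fun s _ => by ring) p (by rw [hpd]; omega)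
        rw [← Finset.sum_filter_of_ne (p := fun s => s.1 = j0 + (q + 1))] at h2
        · rw [hcol] at h2
          have hx := pow_ne_zero (j0 + (q + 1)) (hx0 a)
          have h3 : (x a ^ (j0 + (q + 1)) * p.eval ((j0 + (q + 1) : ℕ) : K)) *
              ∑ i ∈ (S.filter fun s => s.1 = j0 + (q + 1)).image Prod.snd,
                f (j0 + (q + 1), i) * ((i : K) ^ b * y a ^ i) = 0 := by
            rw [← h2, Finset.mul_sum]
            exact Finset.sum_congr rfl fun i _ => by ring
          rcases mul_eq_zero.1 h3 with h4 | h4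
          · exact absurd h4 (mul_ne_zero hx hpj)
          · exact h4
        · intro s' hs' hne
          by_contra hcon
          apply hne
          have hs'' := h s' hs'
          by_cases hlt : s'.1 ≤ j0 + q
          · rw [ih' s' hs' hlt]; ring
          · rw [hp, Polynomial.eval_prod, Finset.prod_eq_zero
              (Finset.mem_Ioc.2 ⟨show j0 + (q + 1) < s'.1 by omega, hs''.2.1⟩), mul_zero]
            simp
      · exact Finset.mem_image_of_mem _ (Finset.mem_filter.2 ⟨hs, hj⟩)
  intro s hs
  exact main m le_rfl s hs (h s hs).2.1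

end Tent

/-- **The row tent lemma for `g` points.** -/
theorem good_rows (g m : ℕ) (S : Finset (ℕ × ℕ))
    (hm : ∀ i, (S.filter fun s => s.2 = i).card ≤ m)
    (h : ∀ t < m, ∃ A : ℕ, ∀ i, t < (S.filter fun s => s.2 = i).card →
      A ≤ i ∧ i < A + g * (m - t)) :
    Good S (fun _ : Fin g => m) := by
  refine ⟨fun a => ![1, ((a : ℕ) : ℚ) + 1], fun a k => ?_, fun f hf => ?_⟩
  · fin_cases k
    · simp
    · simp; positivity
  · refine eq_zero_of_rows S hm h (fun a : Fin g => ((a : ℕ) : ℚ) + 1) ?_ (fun a => by positivity)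
      f (fun a => by simpa using hf a)
    intro a b hab
    have : ((a : ℕ) : ℚ) = ((b : ℕ) : ℚ) := by simpa using hab
    exact Fin.ext (by exact_mod_cast this)

/-- **The column tent lemma for `g` points.** -/
theorem good_cols (g m j0 : ℕ) (lo : ℕ → ℕ) (S : Finset (ℕ × ℕ))
    (h : ∀ s ∈ S, j0 < s.1 ∧ s.1 ≤ j0 + m ∧ lo s.1 ≤ s.2 ∧ s.2 < lo s.1 + g * (s.1 - j0)) :
    Good S (fun _ : Fin g => m) := by
  refine ⟨fun a => ![1, ((a : ℕ) : ℚ) + 1], fun a k => ?_, fun f hf => ?_⟩
  · fin_cases k
    · simp
    · simp; positivity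
  · refine eq_zero_of_cols lo S h (fun _ => (1 : ℚ)) (fun a : Fin g => ((a : ℕ) : ℚ) + 1)
      (fun _ => one_ne_zero) ?_ (fun a => by positivity) f (fun a => by simpa using hf a)
    intro a b hab
    have : ((a : ℕ) : ℚ) = ((b : ℕ) : ℚ) := by simpa using hab
    exact Fin.ext (by exact_mod_cast this)

end Vale.Agent.P279.NG
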